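import Vale.Agent.P246.R2.H429.Defs4

/-!
P246.StableRange, row TW2: `covW : SpecCovW`, the covering of the wedge.
-/

namespace Vale.Agent.P246.R2.H315

open Topology Set Vale.Agent.P246.H429

/-- Row TW2. -/
theorem covW : SpecCovW := by
  intro G X E _ _ _ _ _ p hp x s t
  let S : Set (X × (Fin t → S2)) :=
    {q | (∀ i, q.2 i = s) ∨ (q.1 = x ∧ ∃ i, ∀ j, j ≠ i → q.2 j = s)}
  let P : E × (Fin t → S2) → X × (Fin t → S2) := Prod.map p id
  have hPo : IsOpenQuotientMap P := hp.isOpenQuotientMap.prodMap IsOpenQuotientMap.id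
  let F : Type := ↥(P ⁻¹' S)
  let act : MulAction G F :=
    { smul := fun g f => ⟨(g • f.1.1, f.1.2), by
        have h := f.2
        simp only [P, S, mem_preimage, Prod.map, id, mem_ofPred_eq] at h ⊢
        rw [hp.map_smul g]
        exact h⟩
      one_smul := fun f => Subtype.ext (Prod.ext (one_smul G f.1.1) rfl)
      mul_smul := fun g h f => Subtype.ext (Prod.ext (mul_smul g h f.1.1) rfl) }
  have hact : ∀ (g : G) (f : F), (g • f).1 = (g • f.1.1, f.1.2) := fun g f => rfl
  have hcs : ContinuousConstSMul G F := by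
    refine ⟨fun g => Continuous.subtype_mk ?_ _⟩
    exact ((continuous_const_smul g).comp (continuous_fst.comp continuous_subtype_val)).prodMk
      (continuous_snd.comp continuous_subtype_val)
  let q : C(F, WedgeS2 X x s t) := ⟨S.restrictPreimage P, hPo.continuous.restrictPreimage⟩
  have hq1 : ∀ f : F, (q f).1 = (p f.1.1, f.1.2) := fun f => rfl
  let ι : C(E, F) := ⟨fun e => ⟨(e, fun _ => s), Or.inl fun _ => rfl⟩,
    Continuous.subtype_mk (by fun_prop) _⟩
  have hι : ∀ e, (ι e).1 = (e, fun _ => s) := fun e => rfl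
  refine ⟨F, inferInstance, act, hcs, q, ι, ?_, ?_, ?_, ?_, ?_⟩
  · have hqo : IsOpenQuotientMap q :=
      ⟨(Set.restrictPreimage_surjective S hPo.surjective), q.continuous,
        hPo.isOpenMap.restrictPreimage S⟩
    refine (isQuotientCoveringMap_iff ..).mpr ⟨hqo.isQuotientMap, hcs, ?_, ?_⟩
    · intro f1 f2
      constructor
      · intro h
        have h' := congrArg Subtype.val h
        rw [hq1, hq1, Prod.mk.injEq] at h'
        obtain ⟨g, hg⟩ := hp.apply_eq_iff_mem_orbit.mp h'.1
        exact ⟨g, Subtype.ext (Prod.ext hg h'.2.symm)⟩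
      · rintro ⟨g, rfl⟩
        apply Subtype.ext
        rw [hq1, hq1]
        exact Prod.ext (hp.map_smul g) rfl
    · intro f
      obtain ⟨U, hU, hd⟩ := hp.disjoint f.1.1
      refine ⟨(fun f : F => f.1.1) ⁻¹' U,
        (continuous_fst.comp continuous_subtype_val).continuousAt.preimage_mem_nhds hU, ?_⟩
      rintro g ⟨_, ⟨f1, h1, rfl⟩, h2⟩
      exact hd g ⟨g • f1.1.1, ⟨f1.1.1, h1, rfl⟩, h2⟩
  · exact Function.LeftInverse.isEmbedding (f := fun f : F => f.1.1) (fun e => rfl)
      (continuous_fst.comp continuous_subtype_val) ι.continuous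
  · ext f
    constructor
    · rintro ⟨e, rfl⟩
      exact fun i => rfl
    · intro h
      refine ⟨f.1.1, Subtype.ext (Prod.ext rfl ?_)⟩
      funext i
      exact (h i).symm
  · intro g e
    rfl
  · intro e
    rfl

end Vale.Agent.P246.R2.H315
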